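import Vale.Agent.helper2.OptR

namespace Vale.Agent.helper2.Snaky

/-- a bijection of the board preserving allowed copies preserves forced wins -/
theorem map_wins (e : Cell ≃ Cell) (he : ∀ A, IsCopy A → IsCopy (e '' A)) {M B : Set Cell}
    (h : MakerWins M B) : MakerWins (e '' M) (e '' B) := by
  induction h with
  | done M B A hA hAM =>
    exact MakerWins.done _ _ (e '' A) (he A hA) (Set.image_mono hAM)
  | step M B m hm hb _ ih =>
    refine MakerWins.step _ _ (e m) ?_ ?_ ?_
    · rintro ⟨y, hy, hye⟩
      rw [e.injective hye] at hy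
      exact hm hy
    · rintro ⟨y, hy, hye⟩
      rw [e.injective hye] at hy
      exact hb hy
    · intro b hb1 hb2
      have h1 : e.symm b ∉ insert m M := by
        intro hmem
        apply hb1
        rcases hmem with hmem | hmem
        · left
          rw [← hmem]
          simp
        · right
          exact ⟨_, hmem, by simp⟩
      have h2 : e.symm b ∉ B := fun hmem => hb2 ⟨_, hmem, by simp⟩
      have := ih (e.symm b) h1 h2
      rw [Set.image_insert_eq, Set.image_insert_eq] at this
      simpa using this

/-- the swap of coordinates -/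
def eSwap : Cell ≃ Cell := Equiv.prodComm ℤ ℤ

/-- the negation of the first coordinate -/
def eNeg : Cell ≃ Cell where
  toFun c := (-c.1, c.2)
  invFun c := (-c.1, c.2)
  left_inv c := by simp
  right_inv c := by simp

theorem copy_swap (A : Set Cell) (h : IsCopy A) : IsCopy (eSwap '' A) := by
  obtain ⟨t, sw, s₁, s₂, h1, h2, rfl⟩ := h
  refine ⟨(t.2, t.1), !sw, s₂, s₁, h2, h1, ?_⟩
  rw [Set.image_image]
  apply Set.image_congr
  intro c _
  cases sw <;> simp [eSwap, rmap, Prod.ext_iff]

theorem copy_neg (A : Set Cell) (h : IsCopy A) : IsCopy (eNeg '' A) := by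
  obtain ⟨t, sw, s₁, s₂, h1, h2, rfl⟩ := h
  refine ⟨(-t.1, t.2), sw, -s₁, s₂, ?_, h2, ?_⟩
  · rcases h1 with rfl | rfl
    · right; rfl
    · left; norm_num
  · rw [Set.image_image]
    apply Set.image_congr
    intro c _
    cases sw <;> simp [eNeg, rmap, Prod.ext_iff] <;> ring

/-- after Maker's first stone at the origin and Breaker's reply `x`, Maker has a forced win -/
def W (x : Cell) : Prop := MakerWins {(0, 0)} {x}

theorem W_swap {x y : ℤ} (h : W (x, y)) : W (y, x) := by
  have := map_wins eSwap copy_swap h
  simpa [W, eSwap, Set.image_singleton] using this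

theorem W_neg {x y : ℤ} (h : W (x, y)) : W (-x, y) := by
  have := map_wins eNeg copy_neg h
  simpa [W, eNeg, Set.image_singleton] using this

/-- index of the image under the negation of the first coordinate -/
def negI (i : ℕ) : ℕ := i / 31 * 31 + (30 - i % 31)

/-- index of the image under the swap of coordinates -/
def swapI (i : ℕ) : ℕ := i % 31 * 31 + i / 31

lemma negI_lt {i : ℕ} (h : i < 961) : negI i < 961 := by
  unfold negI
  omega

lemma swapI_lt {i : ℕ} (h : i < 961) : swapI i < 961 := by
  unfold swapI
  omega

lemma dec_negI {i : ℕ} (h : i < 961) : dec (negI i) = (-(dec i).1, (dec i).2) := by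
  unfold dec negI
  have h1 : (i / 31 * 31 + (30 - i % 31)) % 31 = 30 - i % 31 := by omega
  have h2 : (i / 31 * 31 + (30 - i % 31)) / 31 = i / 31 := by omega
  rw [h1, h2]
  simp only [Prod.mk.injEq, and_true]
  omega

lemma dec_swapI {i : ℕ} (h : i < 961) : dec (swapI i) = ((dec i).2, (dec i).1) := by
  unfold dec swapI
  have h1 : (i % 31 * 31 + i / 31) % 31 = i / 31 := by omega
  have h2 : (i % 31 * 31 + i / 31) / 31 = i % 31 := by omega
  rw [h1, h2]

lemma W_of_negI {i : ℕ} (h : i < 961) (hw : W (dec (negI i))) : W (dec i) := by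
  rw [dec_negI h] at hw
  have := W_neg hw
  simpa using this

lemma W_of_swapI {i : ℕ} (h : i < 961) (hw : W (dec (swapI i))) : W (dec i) := by
  rw [dec_swapI h] at hw
  exact W_swap hw

/-- some mask of the list misses the index `i` -/
def miss (L : List ℕ) (i : ℕ) : Bool := L.any (fun u => !(u.testBit i))

lemma W_of_miss {L : List ℕ} (hL : ∀ u ∈ L, ∀ x, x ∉ cells u → W x) {i : ℕ}
    (h : miss L i = true) : W (dec i) := by
  unfold miss at h
  rw [List.any_eq_true] at h
  obtain ⟨u, hu, hb⟩ := h
  apply hL u hu
  apply dec_not_mem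
  simpa using hb

/-- a symmetric image of the index `i` is missed by some mask of the list -/
def cov (L : List ℕ) (i : ℕ) : Bool :=
  miss L i || miss L (negI i) || miss L (swapI i) || miss L (negI (swapI i)) ||
    miss L (swapI (negI i)) || miss L (negI (swapI (negI i))) ||
    miss L (swapI (negI (swapI i))) || miss L (negI (swapI (negI (swapI i))))

lemma W_of_cov {L : List ℕ} (hL : ∀ u ∈ L, ∀ x, x ∉ cells u → W x) {i : ℕ} (hi : i < 961)
    (h : cov L i = true) : W (dec i) := by
  unfold cov at h
  simp only [Bool.or_eq_true] at h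
  have n1 := negI_lt hi
  have s1 := swapI_lt hi
  have n2 := negI_lt s1
  have s2 := swapI_lt n1
  have n3 := negI_lt s2
  have s3 := swapI_lt n2
  rcases h with ((((((h | h) | h) | h) | h) | h) | h) | h
  · exact W_of_miss hL h
  · exact W_of_negI hi (W_of_miss hL h)
  · exact W_of_swapI hi (W_of_miss hL h)
  · exact W_of_swapI hi (W_of_negI s1 (W_of_miss hL h))
  · exact W_of_negI hi (W_of_swapI n1 (W_of_miss hL h))
  · exact W_of_negI hi (W_of_swapI n1 (W_of_negI s2 (W_of_miss hL h)))
  · exact W_of_swapI hi (W_of_negI s1 (W_of_swapI n2 (W_of_miss hL h)))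
  · exact W_of_swapI hi (W_of_negI s1 (W_of_swapI n2 (W_of_negI s3 (W_of_miss hL h))))

/-- the result of the checker has union and intersection both equal to `U` -/
def okRes (r : Option (ℕ × ℕ × ℕ × List ℕ)) (U : ℕ) : Bool :=
  match r with
  | some (u, i, _, _) => u == U && i == U
  | none => false

theorem base_of_ok (f cur : ℕ) (rest : List ℕ) (U : ℕ)
    (h : okRes (chk f (1 <<< 480) cur rest) U = true) : ∀ x, x ∉ cells U → W x := by
  intro x hx
  unfold okRes at h
  split at h
  · rename_i u i c r heq
    simp only [Bool.and_eq_true, beq_iff_eq] at h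
    obtain ⟨rfl, rfl⟩ := h
    have := chk_sound _ _ _ _ _ _ _ _ heq ∅ x (Set.empty_disjoint _) hx
    have h480 : cells (1 <<< 480) = {((0 : ℤ), (0 : ℤ))} := by
      rw [cells_bit]
      simp [dec]
    rw [h480] at this
    simpa [W] using this
  · simp at h

theorem base_of_okR (f cur : ℕ) (rest : List ℕ) (U : ℕ)
    (h : okRes (chkR f (1 <<< 480) cur rest) U = true) : ∀ x, x ∉ cells U → W x := by
  rw [chkR_eq] at h
  exact base_of_ok f cur rest U h

/-- the eight neighbours of the origin, together with the origin, in index form -/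
def nearI (i : ℕ) : Bool := (14 ≤ i % 31 && i % 31 ≤ 16 && 14 ≤ i / 31 && i / 31 ≤ 16)

lemma nearI_of_dec {i : ℕ} (h : (dec i).1.natAbs ≤ 1 ∧ (dec i).2.natAbs ≤ 1) : nearI i = true := by
  unfold dec at h
  simp only at h
  unfold nearI
  simp only [Bool.and_eq_true, decide_eq_true_eq]
  omega

/-- Coverage theorem: if the masks of `L` are all winning and `U` is one of them and every index
of `U` that is not near the origin has a missed symmetric image, then every far reply loses. -/
theorem far_wins {L : List ℕ} (hL : ∀ u ∈ L, ∀ x, x ∉ cells u → W x) {U : ℕ} (hU : U ∈ L)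
    (hlt : U < 2 ^ 961)
    (hc : (List.range 961).all (fun i => !(U.testBit i) || nearI i || cov L i) = true)
    (x : Cell) (hx : 2 ≤ |x.1| ∨ 2 ≤ |x.2|) : W x := by
  by_cases hxU : x ∈ cells U
  · obtain ⟨i, hi, rfl⟩ := hxU
    have hi961 : i < 961 := by
      by_contra hge
      have : U.testBit i = false := Nat.testBit_lt_two_pow (lt_of_lt_of_le hlt
        (Nat.pow_le_pow_right (by norm_num) (not_lt.mp hge)))
      simp [this] at hi
    rw [List.all_eq_true] at hc
    have := hc i (List.mem_range.mpr hi961)
    simp only [hi, Bool.not_true, Bool.false_or, Bool.or_eq_true] at this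
    rcases this with h | h
    · exfalso
      unfold nearI at h
      simp only [Bool.and_eq_true, decide_eq_true_eq] at h
      unfold dec at hx
      simp only at hx
      rcases hx with hx | hx
      · rw [le_abs] at hx
        omega
      · rw [le_abs] at hx
        omega
    · exact W_of_cov hL hi961 h
  · exact hL U hU x hxU

end Vale.Agent.helper2.Snaky
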