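import Vale.Agent.helper2.SnakyDag
import Vale.Agent.helper2.SnakySym

namespace Vale.Agent.helper2.Snaky

noncomputable section

/-- the checker returned union and intersection both equal to `U` -/
def okD (r : ResD) (U : ℕ) : Bool :=
  Option.rec false (fun s => St.rec (fun u i _ _ _ _ => Nat.beq u U && Nat.beq i U) s) r

theorem valid_of_ok {f : ℕ} {D : Tr} {n M cur : ℕ} {rest : List ℕ} {U : ℕ} (hD : AllValid D)
    (h : okD (chkD f D n M cur rest) U = true) : Valid M U U := by
  unfold okD at h
  cases hc : chkD f D n M cur rest with
  | none => rw [hc] at h; exact absurd h (by simp)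
  | some s =>
    rw [hc] at h
    have hg := chkD_sound f D n M cur rest s hc hD
    cases s with
    | mk u i c r D' n' =>
      have h' : (Nat.beq u U && Nat.beq i U) = true := h
      rw [Bool.and_eq_true] at h'
      have e1 : u = U := Nat.eq_of_beq_eq_true h'.1
      have e2 : i = U := Nat.eq_of_beq_eq_true h'.2
      subst e1
      subst e2
      exact hg.1

/-- the store made of a list of results -/
def mkStoreAux : List (ℕ × ℕ) → ℕ → Tr → Tr
  | [], _, t => t
  | e :: es, n, t => mkStoreAux es (n + 1) (insT 18 n e.1 e.2 e.2 t)

def mkStore (L : List (ℕ × ℕ)) : Tr := mkStoreAux L 0 Tr.nil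

lemma allValid_mkStoreAux : ∀ (L : List (ℕ × ℕ)) (n : ℕ) (t : Tr), (∀ e ∈ L, Valid e.1 e.2 e.2) →
    AllValid t → AllValid (mkStoreAux L n t) := by
  intro L
  induction L with
  | nil => intro n t _ ht; exact ht
  | cons e es ih =>
    intro n t h ht
    apply ih
    · intro e' he'
      exact h e' (List.mem_cons_of_mem _ he')
    · exact allValid_ins 18 _ _ _ _ _ (h e List.mem_cons_self) ht

theorem allValid_mkStore (L : List (ℕ × ℕ)) (h : ∀ e ∈ L, Valid e.1 e.2 e.2) :
    AllValid (mkStore L) := allValid_mkStoreAux L 0 Tr.nil h trivial

/-- a valid result for Maker's first stone at the origin gives the wins outside the mask -/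
theorem base_of_valid {M0 U : ℕ} (hM : M0 = 1 <<< 480) (h : Valid M0 U U) :
    ∀ x, x ∉ cells U → W x := by
  subst hM
  intro x hx
  have := h ∅ x (Set.empty_disjoint _) hx
  have h480 : cells (1 <<< 480) = {((0 : ℤ), (0 : ℤ))} := by
    rw [cells_bit]
    simp [dec]
  rw [h480] at this
  simpa [W] using this

/-- Coverage: if the masks of `L` are all winning, `U` is one of them and every index of `U` that
is not `near` has a missed symmetric image, then every reply outside the `near` indices loses. -/
theorem wins_of_cov {L : List ℕ} (hL : ∀ u ∈ L, ∀ x, x ∉ cells u → W x) {U : ℕ} (hU : U ∈ L)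
    (hlt : U < 2 ^ 961) (near : ℕ → Bool)
    (hc : (List.range 961).all (fun i => !(U.testBit i) || near i || cov L i) = true)
    (x : Cell) (hx : ∀ i, x = dec i → near i = false) : W x := by
  by_cases hxU : x ∈ cells U
  · obtain ⟨i, hi, rfl⟩ := hxU
    have hi961 : i < 961 := by
      by_contra hge
      have : U.testBit i = false := Nat.testBit_lt_two_pow (lt_of_lt_of_le hlt
        (Nat.pow_le_pow_right (by norm_num) (not_lt.mp hge)))
      simp [this] at hi
    rw [List.all_eq_true] at hc
    have := hc i (List.mem_range.mpr hi961)
    simp only [hi, Bool.not_true, Bool.false_or, Bool.or_eq_true] at this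
    rcases this with h | h
    · have := hx i rfl
      rw [this] at h
      exact absurd h (by simp)
    · exact W_of_cov hL hi961 h
  · exact hL U hU x hxU

end

end Vale.Agent.helper2.Snaky
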