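import Vale.Agent.helper2.SnakyCheck

namespace Vale.Agent.helper2.Snaky

def tmplR (r : ℕ) : ℕ :=
  Bool.rec
    (Bool.rec
      (Bool.rec 42535295884924348570711282370654240769 21267647942462174285355641188548345858 (Nat.beq r 6))
      (Bool.rec 21267647962269214918533411603214237698 42535295894827868880382638547124879361 (Nat.beq r 4))
      (Nat.ble r 5))
    (Bool.rec
      (Bool.rec 64424509443 32212254744 (Nat.beq r 2))
      (Bool.rec 6442450974 51539607567 (Nat.beq r 0))
      (Nat.ble r 1))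
    (Nat.ble r 3)

def bitR (M m : ℕ) : Bool := Nat.beq (Nat.land (Nat.shiftRight M m) 1) 1

def lineR (M r a : ℕ) : Bool :=
  Bool.rec false
    (Bool.rec false (Nat.beq (Nat.land (Nat.shiftLeft (tmplR r) a) M) (Nat.shiftLeft (tmplR r) a))
      (Nat.ble (Nat.add (Nat.mod a 31) 5) 31))
    (Nat.ble r 7)

abbrev ResR := Option (ℕ × ℕ × ℕ × List ℕ)

def node2 (mb : ℕ) (r : ℕ × ℕ × ℕ × List ℕ) : ResR :=
  Prod.rec (fun u p => Prod.rec (fun i q =>
    Bool.rec none (some (Nat.lor u mb, Nat.lor u mb, q)) (Nat.beq i 0)) p) r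

def nodeR (ih : ℕ → ℕ → List ℕ → ResR) (m cur1 : ℕ) (rest1 : List ℕ) (M : ℕ) : ResR :=
  Bool.rec
    (Option.rec none (node2 (Nat.shiftLeft 1 m))
      (ih (Nat.lor M (Nat.shiftLeft 1 m)) cur1 rest1))
    none (bitR M m)

def cons3 (u1 i1 : ℕ) (r : ℕ × ℕ × ℕ × List ℕ) : ResR :=
  Prod.rec (fun u2 p => Prod.rec (fun i2 q => some (Nat.lor u1 u2, Nat.land i1 i2, q)) p) r

def cons2 (ih : ℕ → ℕ → List ℕ → ResR) (M : ℕ) (r : ℕ × ℕ × ℕ × List ℕ) : ResR :=
  Prod.rec (fun u1 p => Prod.rec (fun i1 q => Prod.rec (fun c1 r1 =>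
     Option.rec none (cons3 u1 i1) (ih M c1 r1)) q) p) r

def consR (ih : ℕ → ℕ → List ℕ → ResR) (cur1 : ℕ) (rest1 : List ℕ) (M : ℕ) : ResR :=
  Option.rec none (cons2 ih M) (ih M cur1 rest1)

def winR (c t cur1 : ℕ) (rest1 : List ℕ) (M : ℕ) : ResR :=
  Bool.rec
    (Bool.rec none (some (Nat.shiftLeft 1 c, Nat.shiftLeft 1 c, cur1, rest1))
      (lineR (Nat.lor M (Nat.shiftLeft 1 c)) (Nat.mod t 8) (Nat.div t 8)))
    none (bitR M c)

def stepR (tok cur1 : ℕ) (rest1 : List ℕ) (ih : ℕ → ℕ → List ℕ → ResR) (M : ℕ) : ResR :=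
  Bool.rec
    (Bool.rec
      (Bool.rec none (winR (Nat.mod (Nat.div tok 4) 1024) (Nat.div tok 4096) cur1 rest1 M)
        (Nat.beq (Nat.mod tok 4) 1))
      (consR ih cur1 rest1 M)
      (Nat.beq (Nat.mod tok 4) 3))
    (nodeR ih (Nat.div tok 4) cur1 rest1 M)
    (Nat.beq (Nat.mod tok 4) 2)

def readR (ih : ℕ → ℕ → List ℕ → ResR) (M : ℕ) (rest : List ℕ) : ResR :=
  List.rec none (fun c cs _ => stepR (Nat.mod c 67108864) (Nat.div c 67108864) cs ih M) rest

def chkR (fuel : ℕ) : ℕ → ℕ → List ℕ → ResR :=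
  Nat.rec (fun _ _ _ => none)
    (fun _ ih M cur rest =>
      Bool.rec (stepR (Nat.mod cur 67108864) (Nat.div cur 67108864) rest ih M) (readR ih M rest)
        (Nat.beq cur 0)) fuel


lemma nbeq (a b : ℕ) : Nat.beq a b = decide (a = b) := by
  rw [Bool.eq_iff_iff]
  simp [Nat.beq_eq]

lemma nble (a b : ℕ) : Nat.ble a b = decide (a ≤ b) := by
  rw [Bool.eq_iff_iff]
  simp [Nat.ble_eq]

lemma bitR_eq (M m : ℕ) : bitR M m = M.testBit m := by
  unfold bitR
  rw [nbeq, Nat.testBit_eq_decide_div_mod_eq]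
  have e1 : Nat.shiftRight M m = M / 2 ^ m := Nat.shiftRight_eq_div_pow M m
  have e2 : Nat.land (M / 2 ^ m) 1 = (M / 2 ^ m) % 2 := Nat.and_one_is_mod _
  rw [e1, e2]

lemma tmplR_eq (r : ℕ) (h : r < 8) : tmplR r = tmpl r := by
  interval_cases r <;> rfl

lemma lineR_eq (M r a : ℕ) (h : r < 8) : lineR M r a = lineOK M r a := by
  unfold lineR lineOK
  rw [tmplR_eq r h]
  have h7 : Nat.ble r 7 = true := by
    rw [Nat.ble_eq]
    omega
  rw [h7]
  simp only [h, decide_true, Bool.true_and]
  by_cases h2 : a % 31 + 4 < 31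
  · have : Nat.ble (Nat.add (Nat.mod a 31) 5) 31 = true := by
      rw [Nat.ble_eq]
      show a % 31 + 5 ≤ 31
      omega
    rw [this]
    simp only [h2, decide_true, Bool.true_and]
    have e : Nat.shiftLeft (tmpl r) a = tmpl r <<< a := rfl
    rw [e, nbeq]
    simp only [beq_eq_decide]
  · have : Nat.ble (Nat.add (Nat.mod a 31) 5) 31 = false := by
      rw [← Bool.not_eq_true, Nat.ble_eq]
      show ¬ (a % 31 + 5 ≤ 31)
      omega
    rw [this]
    simp [h2]

lemma lor_eq (a b : ℕ) : Nat.lor a b = a ||| b := rfl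
lemma land_eq (a b : ℕ) : Nat.land a b = a &&& b := rfl
lemma shl_eq (a b : ℕ) : Nat.shiftLeft a b = a <<< b := rfl
lemma mod_eq' (a b : ℕ) : Nat.mod a b = a % b := rfl
lemma div_eq' (a b : ℕ) : Nat.div a b = a / b := rfl

/-- one step of the checker, written with the names of the proved checker -/
def stepC (f : ℕ) (tok cur1 : ℕ) (rest1 : List ℕ) (M : ℕ) : ResR :=
  if tok % 4 = 1 then
    if M.testBit (tok / 4 % 1024) = false ∧
        lineOK (M ||| 1 <<< (tok / 4 % 1024)) (tok / 4096 % 8) (tok / 4096 / 8) = true then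
      some (1 <<< (tok / 4 % 1024), 1 <<< (tok / 4 % 1024), cur1, rest1)
    else none
  else if tok % 4 = 2 then
    if M.testBit (tok / 4) = false then
      match chk f (M ||| 1 <<< (tok / 4)) cur1 rest1 with
      | some (u, i, c2, r2) =>
        if i = 0 then some (u ||| 1 <<< (tok / 4), u ||| 1 <<< (tok / 4), c2, r2) else none
      | none => none
    else none
  else if tok % 4 = 3 then
    match chk f M cur1 rest1 with
    | some (u1, i1, c1, r1) =>
      match chk f M c1 r1 with
      | some (u2, i2, c2, r2) => some (u1 ||| u2, i1 &&& i2, c2, r2)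
      | none => none
    | none => none
  else none

lemma chk_succ (f M cur : ℕ) (rest : List ℕ) :
    chk (f + 1) M cur rest =
      match readTok cur rest with
      | (tok, cur1, rest1) => stepC f tok cur1 rest1 M := by
  rw [chk]
  rfl

lemma nodeR_eq (f m cur1 : ℕ) (rest1 : List ℕ) (M : ℕ)
    (ih : ∀ M' c r, chkR f M' c r = chk f M' c r) :
    nodeR (chkR f) m cur1 rest1 M =
      if M.testBit m = false then
        match chk f (M ||| 1 <<< m) cur1 rest1 with
        | some (u, i, c2, r2) =>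
          if i = 0 then some (u ||| 1 <<< m, u ||| 1 <<< m, c2, r2) else none
        | none => none
      else none := by
  unfold nodeR
  rw [bitR_eq]
  cases h : M.testBit m with
  | true => rfl
  | false =>
    simp only [if_true]
    show @Option.rec _ (fun _ => ResR) none (node2 (Nat.shiftLeft 1 m)) (chkR f (Nat.lor M (Nat.shiftLeft 1 m)) cur1 rest1) = _
    rw [shl_eq, lor_eq, ih]
    cases hc : chk f (M ||| 1 <<< m) cur1 rest1 with
    | none => rfl
    | some v =>
      obtain ⟨u, i, c2, r2⟩ := v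
      show node2 (1 <<< m) (u, i, c2, r2) = _
      show @Bool.rec (fun _ => ResR) none (some (Nat.lor u (1 <<< m), Nat.lor u (1 <<< m), c2, r2)) (Nat.beq i 0) = _
      rw [nbeq]
      by_cases hi : i = 0
      · subst hi
        simp [lor_eq]
      · simp [hi]

lemma consR_eq (f cur1 : ℕ) (rest1 : List ℕ) (M : ℕ)
    (ih : ∀ M' c r, chkR f M' c r = chk f M' c r) :
    consR (chkR f) cur1 rest1 M =
      match chk f M cur1 rest1 with
      | some (u1, i1, c1, r1) =>
        match chk f M c1 r1 with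
        | some (u2, i2, c2, r2) => some (u1 ||| u2, i1 &&& i2, c2, r2)
        | none => none
      | none => none := by
  unfold consR
  rw [ih]
  cases hc : chk f M cur1 rest1 with
  | none => rfl
  | some v =>
    obtain ⟨u1, i1, c1, r1⟩ := v
    show @Option.rec _ (fun _ => ResR) none (cons3 u1 i1) (chkR f M c1 r1) = _
    rw [ih]
    cases hc2 : chk f M c1 r1 with
    | none => simp only [hc2]
    | some w =>
      obtain ⟨u2, i2, c2, r2⟩ := w
      simp only [hc2]
      rfl

lemma winR_eq (c t cur1 : ℕ) (rest1 : List ℕ) (M : ℕ) :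
    winR c t cur1 rest1 M =
      if M.testBit c = false ∧ lineOK (M ||| 1 <<< c) (t % 8) (t / 8) = true then
        some (1 <<< c, 1 <<< c, cur1, rest1)
      else none := by
  unfold winR
  rw [bitR_eq]
  have h8 : t % 8 < 8 := Nat.mod_lt _ (by norm_num)
  show @Bool.rec (fun _ => ResR) (@Bool.rec (fun _ => ResR) none (some (1 <<< c, 1 <<< c, cur1, rest1))
    (lineR (M ||| 1 <<< c) (t % 8) (t / 8))) none (M.testBit c) = _
  rw [lineR_eq _ _ _ h8]
  cases h1 : M.testBit c <;> cases h2 : lineOK (M ||| 1 <<< c) (t % 8) (t / 8) <;> simp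

lemma stepR_eq (f tok cur1 : ℕ) (rest1 : List ℕ) (M : ℕ)
    (ih : ∀ M' c r, chkR f M' c r = chk f M' c r) :
    stepR tok cur1 rest1 (chkR f) M = stepC f tok cur1 rest1 M := by
  unfold stepR stepC
  rw [nbeq, nbeq, nbeq]
  simp only [mod_eq', div_eq']
  by_cases h1 : tok % 4 = 1
  · have h2 : tok % 4 ≠ 2 := by omega
    have h3 : tok % 4 ≠ 3 := by omega
    simp only [h1, if_true]
    show winR _ _ cur1 rest1 M = _
    rw [winR_eq]
  · by_cases h2 : tok % 4 = 2
    · simp only [h2]
      show nodeR (chkR f) (tok / 4) cur1 rest1 M = _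
      rw [nodeR_eq f _ _ _ _ ih]
      simp
    · by_cases h3 : tok % 4 = 3
      · simp only [h3]
        show consR (chkR f) cur1 rest1 M = _
        rw [consR_eq f _ _ _ ih]
        simp
      · simp only [h1, h2, h3, if_false, decide_false]

theorem chkR_eq (f M cur : ℕ) (rest : List ℕ) : chkR f M cur rest = chk f M cur rest := by
  induction f generalizing M cur rest with
  | zero => simp [chkR, chk]
  | succ f ih =>
    rw [chk_succ]
    show @Bool.rec (fun _ => ResR) (stepR (Nat.mod cur 67108864) (Nat.div cur 67108864) rest (chkR f) M)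
      (readR (chkR f) M rest) (Nat.beq cur 0) = _
    rw [nbeq]
    unfold readTok
    by_cases hc : cur = 0
    · subst hc
      simp only [decide_true, if_true]
      show readR (chkR f) M rest = _
      unfold readR
      cases rest with
      | nil =>
        show none = stepC f 0 0 [] M
        simp [stepC]
      | cons c cs =>
        show stepR _ _ cs (chkR f) M = _
        exact stepR_eq f _ _ _ _ ih
    · simp only [hc, decide_false, if_false]
      show stepR _ _ rest (chkR f) M = _
      exact stepR_eq f _ _ _ _ ih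

end Vale.Agent.helper2.Snaky
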