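import Vale.Agent.helper2.SnakyDefs

namespace Vale.Agent.helper2.Snaky

/-- decoding of cell indices -/
def dec (i : ℕ) : Cell := (((i % 31 : ℕ) : ℤ) - 15, ((i / 31 : ℕ) : ℤ) - 15)

lemma dec_inj {i j : ℕ} (h : dec i = dec j) : i = j := by
  unfold dec at h
  simp only [Prod.mk.injEq] at h
  obtain ⟨h1, h2⟩ := h
  omega

/-- the set of cells of a bitmask -/
def cells (n : ℕ) : Set Cell := {c | ∃ i, n.testBit i = true ∧ c = dec i}

lemma cells_lor (a b : ℕ) : cells (a ||| b) = cells a ∪ cells b := by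
  ext c
  simp only [cells, Set.mem_ofPred_eq, Set.mem_union, Nat.testBit_lor, Bool.or_eq_true]
  constructor
  · rintro ⟨i, h | h, rfl⟩
    · exact Or.inl ⟨i, h, rfl⟩
    · exact Or.inr ⟨i, h, rfl⟩
  · rintro (⟨i, h, rfl⟩ | ⟨i, h, rfl⟩)
    · exact ⟨i, Or.inl h, rfl⟩
    · exact ⟨i, Or.inr h, rfl⟩

lemma cells_land (a b : ℕ) : cells (a &&& b) = cells a ∩ cells b := by
  ext c
  simp only [cells, Set.mem_ofPred_eq, Set.mem_inter_iff, Nat.testBit_land, Bool.and_eq_true]
  constructor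
  · rintro ⟨i, ⟨h1, h2⟩, rfl⟩
    exact ⟨⟨i, h1, rfl⟩, ⟨i, h2, rfl⟩⟩
  · rintro ⟨⟨i, h1, rfl⟩, ⟨j, h2, hj⟩⟩
    have := dec_inj hj
    subst this
    exact ⟨i, ⟨h1, h2⟩, rfl⟩

lemma cells_bit (m : ℕ) : cells (1 <<< m) = {dec m} := by
  ext c
  simp only [cells, Set.mem_ofPred_eq, Set.mem_singleton_iff]
  constructor
  · rintro ⟨i, h, rfl⟩
    rw [Nat.one_shiftLeft, Nat.testBit_two_pow] at h
    have : m = i := by simpa using h
    rw [this]
  · rintro rfl
    refine ⟨m, ?_, rfl⟩
    rw [Nat.one_shiftLeft, Nat.testBit_two_pow]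
    simp

lemma cells_zero : cells 0 = ∅ := by
  ext c
  simp [cells]

lemma dec_not_mem (M m : ℕ) (h : M.testBit m = false) : dec m ∉ cells M := by
  rintro ⟨i, hi, hc⟩
  have := dec_inj hc
  subst this
  simp [h] at hi

/-- bitmask of normalized orientation `r` -/
def tmpl (r : ℕ) : ℕ :=
  match r with
  | 0 => 2^0 + 2^1 + 2^2 + 2^3 + 2^(31+3) + 2^(31+4)
  | 1 => 2^4 + 2^3 + 2^2 + 2^1 + 2^(31+1) + 2^(31+0)
  | 2 => 2^31 + 2^(31+1) + 2^(31+2) + 2^(31+3) + 2^3 + 2^4
  | 3 => 2^(31+4) + 2^(31+3) + 2^(31+2) + 2^(31+1) + 2^1 + 2^0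
  | 4 => 2^0 + 2^31 + 2^62 + 2^93 + 2^(93+1) + 2^(124+1)
  | 5 => 2^1 + 2^(31+1) + 2^(62+1) + 2^(93+1) + 2^93 + 2^124
  | 6 => 2^124 + 2^93 + 2^62 + 2^31 + 2^(31+1) + 2^1
  | _ => 2^(124+1) + 2^(93+1) + 2^(62+1) + 2^(31+1) + 2^31 + 2^0

/-- `lineOK M r a`: the allowed copy with orientation `r` and anchor `a` lies in the mask `M`. -/
def lineOK (M r a : ℕ) : Bool :=
  (r < 8) && (a % 31 + 4 < 31) && (Nat.land (tmpl r <<< a) M == tmpl r <<< a)

lemma mem_of_land (mask M i : ℕ) (h : Nat.land mask M = mask) (hi : mask.testBit i = true) :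
    M.testBit i = true := by
  have h2 : (mask &&& M).testBit i = true := by
    have : mask &&& M = mask := h
    rw [this]
    exact hi
  rw [Nat.testBit_land] at h2
  simp only [Bool.and_eq_true] at h2
  exact h2.2

lemma dec_add (a dx dy : ℕ) (h : a % 31 + dx < 31) :
    dec (a + (dy * 31 + dx)) = ((dec a).1 + (dx : ℤ), (dec a).2 + (dy : ℤ)) := by
  unfold dec
  have h1 : (a + (dy * 31 + dx)) % 31 = a % 31 + dx := by omega
  have h2 : (a + (dy * 31 + dx)) / 31 = a / 31 + dy := by omega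
  rw [h1, h2]
  simp only [Prod.mk.injEq]
  push_cast
  constructor <;> ring

lemma pt_aux (b : Bool) (x y : ℤ) : (if b then x else y) = (if b = true then x else y) := rfl

lemma pt (M : ℕ) (a : ℕ) (sw : Bool) (s₁ s₂ sx sy cx cy : ℤ) (dx dy : ℕ)
    (h1 : sx + (if sw then s₁ * cy else s₁ * cx) = dx)
    (h2 : sy + (if sw then s₂ * cx else s₂ * cy) = dy)
    (hb : (((dec a).1 + (dx : ℤ), (dec a).2 + (dy : ℤ)) : Cell) ∈ cells M) :
    (((dec a).1 + sx, (dec a).2 + sy) : Cell) + rmap sw s₁ s₂ (cx, cy) ∈ cells M := by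
  have e : (((dec a).1 + sx, (dec a).2 + sy) : Cell) + rmap sw s₁ s₂ (cx, cy)
      = ((dec a).1 + (dx : ℤ), (dec a).2 + (dy : ℤ)) := by
    rw [← h1, ← h2]
    cases sw <;> simp [rmap, Prod.ext_iff] <;> ring_nf <;> simp
  rw [e]
  exact hb

lemma lineOK_sound (M r a : ℕ) (h : lineOK M r a = true) :
    ∃ A, IsCopy A ∧ A ⊆ cells M := by
  unfold lineOK at h
  simp only [Bool.and_eq_true, decide_eq_true_eq, beq_iff_eq] at h
  obtain ⟨⟨hr, hw⟩, hl⟩ := h
  have hbit : ∀ dx dy : ℕ, a % 31 + dx < 31 → (tmpl r).testBit (dy * 31 + dx) = true →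
      (((dec a).1 + (dx : ℤ), (dec a).2 + (dy : ℤ)) : Cell) ∈ cells M := by
    intro dx dy hd ht
    refine ⟨a + (dy * 31 + dx), ?_, (dec_add a dx dy hd).symm⟩
    apply mem_of_land (tmpl r <<< a) M _ hl
    rw [Nat.testBit_shiftLeft]
    simp only [Bool.and_eq_true, decide_eq_true_eq]
    refine ⟨by omega, ?_⟩
    have : a + (dy * 31 + dx) - a = dy * 31 + dx := by omega
    rw [this]
    exact ht
  have key : ∀ (sw : Bool) (s₁ s₂ : ℤ) (sx sy : ℤ), (s₁ = 1 ∨ s₁ = -1) → (s₂ = 1 ∨ s₂ = -1) →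
      (∀ c ∈ snaky, (((dec a).1 + sx, (dec a).2 + sy) : Cell) + rmap sw s₁ s₂ c ∈ cells M) →
      ∃ A, IsCopy A ∧ A ⊆ cells M := by
    intro sw s₁ s₂ sx sy h1 h2 h3
    refine ⟨_, ⟨((dec a).1 + sx, (dec a).2 + sy), sw, s₁, s₂, h1, h2, rfl⟩, ?_⟩
    rintro _ ⟨c, hc, rfl⟩
    exact h3 c hc
  have snakyForall : ∀ P : Cell → Prop, P (0, 0) → P (1, 0) → P (2, 0) → P (3, 0) → P (3, 1) →
      P (4, 1) → ∀ c ∈ snaky, P c := by
    intro P p1 p2 p3 p4 p5 p6 c hc
    simp only [snaky, Set.mem_insert_iff, Set.mem_singleton_iff] at hc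
    rcases hc with rfl | rfl | rfl | rfl | rfl | rfl <;> assumption
  have hb := hbit
  have pt := pt M a
  interval_cases r
  · refine key false 1 1 0 0 (Or.inl rfl) (Or.inl rfl) (snakyForall _ ?_ ?_ ?_ ?_ ?_ ?_)
    · exact pt false 1 1 0 0 0 0 0 0 (by norm_num [pt_aux]) (by norm_num [pt_aux]) (hb 0 0 (by omega) (by decide))
    · exact pt false 1 1 0 0 1 0 1 0 (by norm_num [pt_aux]) (by norm_num [pt_aux]) (hb 1 0 (by omega) (by decide))
    · exact pt false 1 1 0 0 2 0 2 0 (by norm_num [pt_aux]) (by norm_num [pt_aux]) (hb 2 0 (by omega) (by decide))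
    · exact pt false 1 1 0 0 3 0 3 0 (by norm_num [pt_aux]) (by norm_num [pt_aux]) (hb 3 0 (by omega) (by decide))
    · exact pt false 1 1 0 0 3 1 3 1 (by norm_num [pt_aux]) (by norm_num [pt_aux]) (hb 3 1 (by omega) (by decide))
    · exact pt false 1 1 0 0 4 1 4 1 (by norm_num [pt_aux]) (by norm_num [pt_aux]) (hb 4 1 (by omega) (by decide))
  · refine key false (-1) 1 4 0 (Or.inr rfl) (Or.inl rfl) (snakyForall _ ?_ ?_ ?_ ?_ ?_ ?_)
    · exact pt false (-1) 1 4 0 0 0 4 0 (by norm_num [pt_aux]) (by norm_num [pt_aux]) (hb 4 0 (by omega) (by decide))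
    · exact pt false (-1) 1 4 0 1 0 3 0 (by norm_num [pt_aux]) (by norm_num [pt_aux]) (hb 3 0 (by omega) (by decide))
    · exact pt false (-1) 1 4 0 2 0 2 0 (by norm_num [pt_aux]) (by norm_num [pt_aux]) (hb 2 0 (by omega) (by decide))
    · exact pt false (-1) 1 4 0 3 0 1 0 (by norm_num [pt_aux]) (by norm_num [pt_aux]) (hb 1 0 (by omega) (by decide))
    · exact pt false (-1) 1 4 0 3 1 1 1 (by norm_num [pt_aux]) (by norm_num [pt_aux]) (hb 1 1 (by omega) (by decide))
    · exact pt false (-1) 1 4 0 4 1 0 1 (by norm_num [pt_aux]) (by norm_num [pt_aux]) (hb 0 1 (by omega) (by decide))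
  · refine key false 1 (-1) 0 1 (Or.inl rfl) (Or.inr rfl) (snakyForall _ ?_ ?_ ?_ ?_ ?_ ?_)
    · exact pt false 1 (-1) 0 1 0 0 0 1 (by norm_num [pt_aux]) (by norm_num [pt_aux]) (hb 0 1 (by omega) (by decide))
    · exact pt false 1 (-1) 0 1 1 0 1 1 (by norm_num [pt_aux]) (by norm_num [pt_aux]) (hb 1 1 (by omega) (by decide))
    · exact pt false 1 (-1) 0 1 2 0 2 1 (by norm_num [pt_aux]) (by norm_num [pt_aux]) (hb 2 1 (by omega) (by decide))
    · exact pt false 1 (-1) 0 1 3 0 3 1 (by norm_num [pt_aux]) (by norm_num [pt_aux]) (hb 3 1 (by omega) (by decide))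
    · exact pt false 1 (-1) 0 1 3 1 3 0 (by norm_num [pt_aux]) (by norm_num [pt_aux]) (hb 3 0 (by omega) (by decide))
    · exact pt false 1 (-1) 0 1 4 1 4 0 (by norm_num [pt_aux]) (by norm_num [pt_aux]) (hb 4 0 (by omega) (by decide))
  · refine key false (-1) (-1) 4 1 (Or.inr rfl) (Or.inr rfl) (snakyForall _ ?_ ?_ ?_ ?_ ?_ ?_)
    · exact pt false (-1) (-1) 4 1 0 0 4 1 (by norm_num [pt_aux]) (by norm_num [pt_aux]) (hb 4 1 (by omega) (by decide))
    · exact pt false (-1) (-1) 4 1 1 0 3 1 (by norm_num [pt_aux]) (by norm_num [pt_aux]) (hb 3 1 (by omega) (by decide))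
    · exact pt false (-1) (-1) 4 1 2 0 2 1 (by norm_num [pt_aux]) (by norm_num [pt_aux]) (hb 2 1 (by omega) (by decide))
    · exact pt false (-1) (-1) 4 1 3 0 1 1 (by norm_num [pt_aux]) (by norm_num [pt_aux]) (hb 1 1 (by omega) (by decide))
    · exact pt false (-1) (-1) 4 1 3 1 1 0 (by norm_num [pt_aux]) (by norm_num [pt_aux]) (hb 1 0 (by omega) (by decide))
    · exact pt false (-1) (-1) 4 1 4 1 0 0 (by norm_num [pt_aux]) (by norm_num [pt_aux]) (hb 0 0 (by omega) (by decide))
  · refine key true 1 1 0 0 (Or.inl rfl) (Or.inl rfl) (snakyForall _ ?_ ?_ ?_ ?_ ?_ ?_)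
    · exact pt true 1 1 0 0 0 0 0 0 (by norm_num [pt_aux]) (by norm_num [pt_aux]) (hb 0 0 (by omega) (by decide))
    · exact pt true 1 1 0 0 1 0 0 1 (by norm_num [pt_aux]) (by norm_num [pt_aux]) (hb 0 1 (by omega) (by decide))
    · exact pt true 1 1 0 0 2 0 0 2 (by norm_num [pt_aux]) (by norm_num [pt_aux]) (hb 0 2 (by omega) (by decide))
    · exact pt true 1 1 0 0 3 0 0 3 (by norm_num [pt_aux]) (by norm_num [pt_aux]) (hb 0 3 (by omega) (by decide))
    · exact pt true 1 1 0 0 3 1 1 3 (by norm_num [pt_aux]) (by norm_num [pt_aux]) (hb 1 3 (by omega) (by decide))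
    · exact pt true 1 1 0 0 4 1 1 4 (by norm_num [pt_aux]) (by norm_num [pt_aux]) (hb 1 4 (by omega) (by decide))
  · refine key true (-1) 1 1 0 (Or.inr rfl) (Or.inl rfl) (snakyForall _ ?_ ?_ ?_ ?_ ?_ ?_)
    · exact pt true (-1) 1 1 0 0 0 1 0 (by norm_num [pt_aux]) (by norm_num [pt_aux]) (hb 1 0 (by omega) (by decide))
    · exact pt true (-1) 1 1 0 1 0 1 1 (by norm_num [pt_aux]) (by norm_num [pt_aux]) (hb 1 1 (by omega) (by decide))
    · exact pt true (-1) 1 1 0 2 0 1 2 (by norm_num [pt_aux]) (by norm_num [pt_aux]) (hb 1 2 (by omega) (by decide))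
    · exact pt true (-1) 1 1 0 3 0 1 3 (by norm_num [pt_aux]) (by norm_num [pt_aux]) (hb 1 3 (by omega) (by decide))
    · exact pt true (-1) 1 1 0 3 1 0 3 (by norm_num [pt_aux]) (by norm_num [pt_aux]) (hb 0 3 (by omega) (by decide))
    · exact pt true (-1) 1 1 0 4 1 0 4 (by norm_num [pt_aux]) (by norm_num [pt_aux]) (hb 0 4 (by omega) (by decide))
  · refine key true 1 (-1) 0 4 (Or.inl rfl) (Or.inr rfl) (snakyForall _ ?_ ?_ ?_ ?_ ?_ ?_)
    · exact pt true 1 (-1) 0 4 0 0 0 4 (by norm_num [pt_aux]) (by norm_num [pt_aux]) (hb 0 4 (by omega) (by decide))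
    · exact pt true 1 (-1) 0 4 1 0 0 3 (by norm_num [pt_aux]) (by norm_num [pt_aux]) (hb 0 3 (by omega) (by decide))
    · exact pt true 1 (-1) 0 4 2 0 0 2 (by norm_num [pt_aux]) (by norm_num [pt_aux]) (hb 0 2 (by omega) (by decide))
    · exact pt true 1 (-1) 0 4 3 0 0 1 (by norm_num [pt_aux]) (by norm_num [pt_aux]) (hb 0 1 (by omega) (by decide))
    · exact pt true 1 (-1) 0 4 3 1 1 1 (by norm_num [pt_aux]) (by norm_num [pt_aux]) (hb 1 1 (by omega) (by decide))
    · exact pt true 1 (-1) 0 4 4 1 1 0 (by norm_num [pt_aux]) (by norm_num [pt_aux]) (hb 1 0 (by omega) (by decide))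
  · refine key true (-1) (-1) 1 4 (Or.inr rfl) (Or.inr rfl) (snakyForall _ ?_ ?_ ?_ ?_ ?_ ?_)
    · exact pt true (-1) (-1) 1 4 0 0 1 4 (by norm_num [pt_aux]) (by norm_num [pt_aux]) (hb 1 4 (by omega) (by decide))
    · exact pt true (-1) (-1) 1 4 1 0 1 3 (by norm_num [pt_aux]) (by norm_num [pt_aux]) (hb 1 3 (by omega) (by decide))
    · exact pt true (-1) (-1) 1 4 2 0 1 2 (by norm_num [pt_aux]) (by norm_num [pt_aux]) (hb 1 2 (by omega) (by decide))
    · exact pt true (-1) (-1) 1 4 3 0 1 1 (by norm_num [pt_aux]) (by norm_num [pt_aux]) (hb 1 1 (by omega) (by decide))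
    · exact pt true (-1) (-1) 1 4 3 1 0 1 (by norm_num [pt_aux]) (by norm_num [pt_aux]) (hb 0 1 (by omega) (by decide))
    · exact pt true (-1) (-1) 1 4 4 1 0 0 (by norm_num [pt_aux]) (by norm_num [pt_aux]) (hb 0 0 (by omega) (by decide))

/-- read the next token of the stream -/
def readTok (cur : ℕ) (rest : List ℕ) : ℕ × ℕ × List ℕ :=
  if cur = 0 then
    match rest with
    | [] => (0, 0, [])
    | c :: cs => (c % 2 ^ 26, c / 2 ^ 26, cs)
  else (cur % 2 ^ 26, cur / 2 ^ 26, rest)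

/-- The proof checker. It reads a winning strategy from a stream of tokens and returns the
union and the intersection of the supports of the read proofs. -/
def chk : ℕ → ℕ → ℕ → List ℕ → Option (ℕ × ℕ × ℕ × List ℕ)
  | 0, _, _, _ => none
  | f + 1, M, cur, rest =>
    match readTok cur rest with
    | (tok, cur1, rest1) =>
      if tok % 4 = 1 then
        if M.testBit (tok / 4 % 1024) = false ∧
            lineOK (M ||| 1 <<< (tok / 4 % 1024)) (tok / 4096 % 8) (tok / 4096 / 8) = true then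
          some (1 <<< (tok / 4 % 1024), 1 <<< (tok / 4 % 1024), cur1, rest1)
        else none
      else if tok % 4 = 2 then
        if M.testBit (tok / 4) = false then
          match chk f (M ||| 1 <<< (tok / 4)) cur1 rest1 with
          | some (u, i, c2, r2) =>
            if i = 0 then some (u ||| 1 <<< (tok / 4), u ||| 1 <<< (tok / 4), c2, r2) else none
          | none => none
        else none
      else if tok % 4 = 3 then
        match chk f M cur1 rest1 with
        | some (u1, i1, c1, r1) =>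
          match chk f M c1 r1 with
          | some (u2, i2, c2, r2) => some (u1 ||| u2, i1 &&& i2, c2, r2)
          | none => none
        | none => none
      else none

theorem chk_sound : ∀ (f M cur : ℕ) (rest : List ℕ) (u i c' : ℕ) (r' : List ℕ),
    chk f M cur rest = some (u, i, c', r') →
    ∀ (B : Set Cell) (x : Cell), Disjoint B (cells u) → x ∉ cells i →
      MakerWins (cells M) (insert x B) := by
  intro f
  induction f with
  | zero =>
    intro M cur rest u i c' r' h
    simp [chk] at h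
  | succ f ih =>
    intro M cur rest u i c' r' h B x hB hx
    unfold chk at h
    generalize readTok cur rest = st at h
    obtain ⟨tok, cur1, rest1⟩ := st
    simp only at h
    split_ifs at h with h1 h2 h3 h4 h5
    · -- win
      simp only [Option.some.injEq, Prod.mk.injEq] at h
      obtain ⟨rfl, rfl, -, -⟩ := h
      obtain ⟨h2a, h2b⟩ := h2
      obtain ⟨A, hA, hA2⟩ := lineOK_sound _ _ _ h2b
      rw [cells_bit] at hB hx
      simp only [Set.mem_singleton_iff] at hx
      refine MakerWins.step _ _ (dec (tok / 4 % 1024)) (dec_not_mem _ _ h2a) ?_ ?_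
      · simp only [Set.mem_insert_iff, not_or]
        refine ⟨fun e => hx e.symm, ?_⟩
        intro hmem
        exact (Set.disjoint_left.mp hB hmem) rfl
      · intro b _ _
        refine MakerWins.done _ _ A hA ?_
        refine hA2.trans ?_
        rw [cells_lor, cells_bit]
        intro c hc
        rcases hc with hc | hc
        · exact Or.inr hc
        · exact Or.inl hc
    · -- node
      split at h
      · rename_i u0 i0 c2 r2 heq
        split_ifs at h with h6
        simp only [Option.some.injEq, Prod.mk.injEq] at h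
        obtain ⟨rfl, rfl, -, -⟩ := h
        rw [cells_lor, cells_bit] at hB hx
        simp only [Set.mem_union, Set.mem_singleton_iff, not_or] at hx
        rw [Set.disjoint_union_right, Set.disjoint_singleton_right] at hB
        refine MakerWins.step _ _ (dec (tok / 4)) (dec_not_mem _ _ h4) ?_ ?_
        · simp only [Set.mem_insert_iff, not_or]
          exact ⟨fun e => hx.2 e.symm, hB.2⟩
        · intro b _ _
          have hcells : insert (dec (tok / 4)) (cells M) = cells (M ||| 1 <<< (tok / 4)) := by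
            rw [cells_lor, cells_bit, Set.union_singleton]
          rw [hcells]
          refine ih _ _ _ _ _ _ _ heq (insert x B) b ?_ ?_
          · rw [Set.disjoint_insert_left]
            exact ⟨hx.1, hB.1⟩
          · rw [h6, cells_zero]
            simp
      · simp at h
    · -- cons
      split at h
      · rename_i u1 i1 c1 r1 heq1
        split at h
        · rename_i u2 i2 c2 r2 heq2
          simp only [Option.some.injEq, Prod.mk.injEq] at h
          obtain ⟨rfl, rfl, -, -⟩ := h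
          rw [cells_lor, Set.disjoint_union_right] at hB
          rw [cells_land] at hx
          by_cases hx1 : x ∈ cells i1
          · have hx2 : x ∉ cells i2 := fun h => hx ⟨hx1, h⟩
            exact ih _ _ _ _ _ _ _ heq2 B x hB.2 hx2
          · exact ih _ _ _ _ _ _ _ heq1 B x hB.1 hx1
        · simp at h
      · simp at h

/-- Top level: Maker first plays the cell with index `o`, then follows the proofs of the stream. -/
theorem top_sound (o f cur : ℕ) (rest : List ℕ) (u c' : ℕ) (r' : List ℕ)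
    (h : chk f (1 <<< o) cur rest = some (u, 0, c', r')) : MakerWins ∅ ∅ := by
  refine MakerWins.step _ _ (dec o) (by simp) (by simp) ?_
  intro b _ _
  have h1 : insert (dec o) (∅ : Set Cell) = cells (1 <<< o) := by
    rw [cells_bit]
    simp
  rw [h1]
  have h2 := chk_sound _ _ _ _ _ _ _ _ h ∅ b (Set.empty_disjoint _) (by rw [cells_zero]; simp)
  simpa using h2

end Vale.Agent.helper2.Snaky
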