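import Vale.Agent.helper2.OptR

namespace Vale.Agent.helper2.Snaky

noncomputable section

/-- a store of proved results, indexed by the bits of a number -/
inductive Tr
  | nil
  | leaf (M u i : ℕ)
  | node (l r : Tr)

/-- A checked result: with Maker owning `M`, for every Breaker set `B` disjoint from `u` and every
extra Breaker cell `x` outside `i`, Maker has a forced win. -/
def Valid (M u i : ℕ) : Prop :=
  ∀ (B : Set Cell) (x : Cell), Disjoint B (cells u) → x ∉ cells i →
    MakerWins (cells M) (insert x B)

/-- all results of the store are valid -/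
def AllValid : Tr → Prop
  | .nil => True
  | .leaf M u i => Valid M u i
  | .node l r => AllValid l ∧ AllValid r

def leftOf (t : Tr) : Tr := Tr.rec Tr.nil (fun _ _ _ => Tr.nil) (fun l _ _ _ => l) t
def rightOf (t : Tr) : Tr := Tr.rec Tr.nil (fun _ _ _ => Tr.nil) (fun _ r _ _ => r) t

lemma allValid_left {t : Tr} (h : AllValid t) : AllValid (leftOf t) := by
  cases t with
  | nil => exact trivial
  | leaf M u i => exact trivial
  | node l r => exact h.1

lemma allValid_right {t : Tr} (h : AllValid t) : AllValid (rightOf t) := by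
  cases t with
  | nil => exact trivial
  | leaf M u i => exact trivial
  | node l r => exact h.2

/-- insertion at the path given by the low `d` bits of `j` -/
def insT (d : ℕ) : ℕ → ℕ → ℕ → ℕ → Tr → Tr :=
  Nat.rec (fun _ M u i _ => Tr.leaf M u i)
    (fun _ ih j M u i t =>
      Bool.rec
        (Tr.node (leftOf t) (ih (Nat.div j 2) M u i (rightOf t)))
        (Tr.node (ih (Nat.div j 2) M u i (leftOf t)) (rightOf t))
        (Nat.beq (Nat.land j 1) 0)) d

lemma allValid_ins (d : ℕ) : ∀ (j M u i : ℕ) (t : Tr), Valid M u i → AllValid t →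
    AllValid (insT d j M u i t) := by
  induction d with
  | zero => intro j M u i t h _; exact h
  | succ d ih =>
    intro j M u i t h ht
    show AllValid (@Bool.rec (fun _ => Tr) _ _ _)
    cases Nat.beq (Nat.land j 1) 0 with
    | false => exact ⟨allValid_left ht, ih _ _ _ _ _ h (allValid_right ht)⟩
    | true => exact ⟨ih _ _ _ _ _ h (allValid_left ht), allValid_right ht⟩

/-- lookup at the path given by the low `d` bits of `j` -/
def getT (d : ℕ) : ℕ → Tr → Tr :=
  Nat.rec (fun _ t => t)
    (fun _ ih j t =>
      Bool.rec (ih (Nat.div j 2) (rightOf t)) (ih (Nat.div j 2) (leftOf t))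
        (Nat.beq (Nat.land j 1) 0)) d

lemma allValid_get (d : ℕ) : ∀ (j : ℕ) (t : Tr), AllValid t → AllValid (getT d j t) := by
  induction d with
  | zero => intro j t h; exact h
  | succ d ih =>
    intro j t h
    show AllValid (@Bool.rec (fun _ => Tr) _ _ _)
    cases Nat.beq (Nat.land j 1) 0 with
    | false => exact ih _ _ (allValid_right h)
    | true => exact ih _ _ (allValid_left h)

/-- the state returned by the checker: union and intersection of supports, position in the
stream, store and its size -/
inductive St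
  | mk (u i cur : ℕ) (rest : List ℕ) (D : Tr) (n : ℕ)

abbrev ResD := Option St
abbrev RecD := Tr → ℕ → ℕ → ℕ → List ℕ → ResD

def winD (c t cur1 : ℕ) (rest1 : List ℕ) (D : Tr) (n M : ℕ) : ResD :=
  Bool.rec
    (Bool.rec none (some (St.mk (Nat.shiftLeft 1 c) (Nat.shiftLeft 1 c) cur1 rest1 D n))
      (lineR (Nat.lor M (Nat.shiftLeft 1 c)) (Nat.mod t 8) (Nat.div t 8)))
    none (bitR M c)

def node2D (mb : ℕ) (s : St) : ResD :=
  St.rec (fun u i c r D n =>
    Bool.rec none (some (St.mk (Nat.lor u mb) (Nat.lor u mb) c r D n)) (Nat.beq i 0)) s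

def nodeD (ih : RecD) (m cur1 : ℕ) (rest1 : List ℕ) (D : Tr) (n M : ℕ) : ResD :=
  Bool.rec
    (Option.rec none (node2D (Nat.shiftLeft 1 m))
      (ih D n (Nat.lor M (Nat.shiftLeft 1 m)) cur1 rest1))
    none (bitR M m)

def cons3D (u1 i1 : ℕ) (s : St) : ResD :=
  St.rec (fun u2 i2 c r D n => some (St.mk (Nat.lor u1 u2) (Nat.land i1 i2) c r D n)) s

def cons2D (ih : RecD) (M : ℕ) (s : St) : ResD :=
  St.rec (fun u1 i1 c1 r1 D1 n1 => Option.rec none (cons3D u1 i1) (ih D1 n1 M c1 r1)) s

def consD (ih : RecD) (cur1 : ℕ) (rest1 : List ℕ) (D : Tr) (n M : ℕ) : ResD :=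
  Option.rec none (cons2D ih M) (ih D n M cur1 rest1)

def def2D (M : ℕ) (s : St) : ResD :=
  St.rec (fun u i c r D n => some (St.mk u i c r (insT 18 n M u i D) (Nat.succ n))) s

def defD (ih : RecD) (cur1 : ℕ) (rest1 : List ℕ) (D : Tr) (n M : ℕ) : ResD :=
  Option.rec none (def2D M) (ih D n M cur1 rest1)

def refD (j cur1 : ℕ) (rest1 : List ℕ) (D : Tr) (n M : ℕ) : ResD :=
  Tr.rec none
    (fun M' u i => Bool.rec none (some (St.mk u i cur1 rest1 D n)) (Nat.beq M' M))
    (fun _ _ _ _ => none) (getT 18 j D)

def stepD (tok cur1 : ℕ) (rest1 : List ℕ) (ih : RecD) (D : Tr) (n M : ℕ) : ResD :=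
  Bool.rec
    (Bool.rec
      (Bool.rec
        (Bool.rec (defD ih cur1 rest1 D n M)
          (refD (Nat.div tok 8) cur1 rest1 D n M)
          (Nat.beq (Nat.mod tok 8) 4))
        (winD (Nat.mod (Nat.div tok 4) 1024) (Nat.div tok 4096) cur1 rest1 D n M)
        (Nat.beq (Nat.mod tok 4) 1))
      (consD ih cur1 rest1 D n M)
      (Nat.beq (Nat.mod tok 4) 3))
    (nodeD ih (Nat.div tok 4) cur1 rest1 D n M)
    (Nat.beq (Nat.mod tok 4) 2)

def readD (ih : RecD) (D : Tr) (n M : ℕ) (rest : List ℕ) : ResD :=
  List.rec none (fun c cs _ => stepD (Nat.mod c 67108864) (Nat.div c 67108864) cs ih D n M) rest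

def chkD (fuel : ℕ) : RecD :=
  Nat.rec (fun _ _ _ _ _ => none)
    (fun _ ih D n M cur rest =>
      Bool.rec (stepD (Nat.mod cur 67108864) (Nat.div cur 67108864) rest ih D n M)
        (readD ih D n M rest) (Nat.beq cur 0)) fuel

/-- a returned state is good for Maker's set `M` -/
def Good (M : ℕ) : St → Prop
  | St.mk u i _ _ D _ => Valid M u i ∧ AllValid D

lemma valid_win (M c t : ℕ) (h1 : M.testBit c = false)
    (h2 : lineOK (M ||| 1 <<< c) (t % 8) (t / 8) = true) : Valid M (1 <<< c) (1 <<< c) := by
  intro B x hB hx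
  obtain ⟨A, hA, hA2⟩ := lineOK_sound _ _ _ h2
  rw [cells_bit] at hB hx
  simp only [Set.mem_singleton_iff] at hx
  refine MakerWins.step _ _ (dec c) (dec_not_mem _ _ h1) ?_ ?_
  · simp only [Set.mem_insert_iff, not_or]
    refine ⟨fun e => hx e.symm, ?_⟩
    intro hmem
    exact (Set.disjoint_left.mp hB hmem) rfl
  · intro b _ _
    refine MakerWins.done _ _ A hA ?_
    refine hA2.trans ?_
    rw [cells_lor, cells_bit]
    intro c hc
    rcases hc with hc | hc
    · exact Or.inr hc
    · exact Or.inl hc

lemma valid_node (M m u : ℕ) (h1 : M.testBit m = false) (h : Valid (M ||| 1 <<< m) u 0) :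
    Valid M (u ||| 1 <<< m) (u ||| 1 <<< m) := by
  intro B x hB hx
  rw [cells_lor, cells_bit] at hB hx
  simp only [Set.mem_union, Set.mem_singleton_iff, not_or] at hx
  rw [Set.disjoint_union_right, Set.disjoint_singleton_right] at hB
  refine MakerWins.step _ _ (dec m) (dec_not_mem _ _ h1) ?_ ?_
  · simp only [Set.mem_insert_iff, not_or]
    exact ⟨fun e => hx.2 e.symm, hB.2⟩
  · intro b _ _
    have hcells : insert (dec m) (cells M) = cells (M ||| 1 <<< m) := by
      rw [cells_lor, cells_bit, Set.union_singleton]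
    rw [hcells]
    refine h (insert x B) b ?_ ?_
    · rw [Set.disjoint_insert_left]
      exact ⟨hx.1, hB.1⟩
    · rw [cells_zero]
      simp

lemma valid_cons (M u1 i1 u2 i2 : ℕ) (h1 : Valid M u1 i1) (h2 : Valid M u2 i2) :
    Valid M (u1 ||| u2) (i1 &&& i2) := by
  intro B x hB hx
  rw [cells_lor, Set.disjoint_union_right] at hB
  rw [cells_land] at hx
  by_cases hx1 : x ∈ cells i1
  · have hx2 : x ∉ cells i2 := fun h => hx ⟨hx1, h⟩
    exact h2 B x hB.2 hx2
  · exact h1 B x hB.1 hx1

/-- the hypothesis of induction of the soundness proof -/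
def RecSound (ih : RecD) : Prop :=
  ∀ (D : Tr) (n M cur : ℕ) (rest : List ℕ) (s : St), ih D n M cur rest = some s → AllValid D → Good M s

lemma winD_sound (c t cur1 : ℕ) (rest1 : List ℕ) (D : Tr) (n M : ℕ) (s : St)
    (h : winD c t cur1 rest1 D n M = some s) (hD : AllValid D) : Good M s := by
  unfold winD at h
  rw [bitR_eq] at h
  cases h1 : M.testBit c with
  | true => rw [h1] at h; exact absurd h (by simp)
  | false =>
    rw [h1] at h
    have h8 : t % 8 < 8 := Nat.mod_lt _ (by norm_num)
    have hl := lineR_eq (M ||| 1 <<< c) (t % 8) (t / 8) h8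
    have e : lineR (Nat.lor M (Nat.shiftLeft 1 c)) (Nat.mod t 8) (Nat.div t 8) =
      lineOK (M ||| 1 <<< c) (t % 8) (t / 8) := hl
    simp only at h
    rw [e] at h
    cases h2 : lineOK (M ||| 1 <<< c) (t % 8) (t / 8) with
    | false => rw [h2] at h; exact absurd h (by simp)
    | true =>
      rw [h2] at h
      simp only [Option.some.injEq] at h
      subst h
      exact ⟨valid_win M c t h1 h2, hD⟩

lemma nodeD_sound (ih : RecD) (hih : RecSound ih) (m cur1 : ℕ) (rest1 : List ℕ) (D : Tr) (n M : ℕ)
    (s : St) (h : nodeD ih m cur1 rest1 D n M = some s) (hD : AllValid D) : Good M s := by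
  unfold nodeD at h
  rw [bitR_eq] at h
  cases h1 : M.testBit m with
  | true => rw [h1] at h; exact absurd h (by simp)
  | false =>
    rw [h1] at h
    simp only at h
    cases hc : ih D n (Nat.lor M (Nat.shiftLeft 1 m)) cur1 rest1 with
    | none => rw [hc] at h; exact absurd h (by simp)
    | some s0 =>
      rw [hc] at h
      have hg := hih _ _ _ _ _ _ hc hD
      cases s0 with
      | mk u i c r D' n' =>
        show Good M s
        have h' : node2D (Nat.shiftLeft 1 m) (St.mk u i c r D' n') = some s := h
        unfold node2D at h'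
        simp only at h'
        cases hi : Nat.beq i 0 with
        | false => rw [hi] at h'; exact absurd h' (by simp)
        | true =>
          rw [hi] at h'
          simp only [Option.some.injEq] at h'
          subst h'
          have hi0 : i = 0 := Nat.eq_of_beq_eq_true hi
          subst hi0
          exact ⟨valid_node M m u h1 hg.1, hg.2⟩

lemma consD_sound (ih : RecD) (hih : RecSound ih) (cur1 : ℕ) (rest1 : List ℕ) (D : Tr) (n M : ℕ)
    (s : St) (h : consD ih cur1 rest1 D n M = some s) (hD : AllValid D) : Good M s := by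
  unfold consD at h
  cases hc : ih D n M cur1 rest1 with
  | none => rw [hc] at h; exact absurd h (by simp)
  | some s0 =>
    rw [hc] at h
    have hg := hih _ _ _ _ _ _ hc hD
    cases s0 with
    | mk u1 i1 c1 r1 D1 n1 =>
      have h' : @Option.rec _ (fun _ => ResD) none (cons3D u1 i1) (ih D1 n1 M c1 r1) = some s := h
      cases hc2 : ih D1 n1 M c1 r1 with
      | none => rw [hc2] at h'; exact absurd h' (by simp)
      | some s2 =>
        rw [hc2] at h'
        have hg2 := hih _ _ _ _ _ _ hc2 hg.2
        cases s2 with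
        | mk u2 i2 c2 r2 D2 n2 =>
          have h'' : some (St.mk (Nat.lor u1 u2) (Nat.land i1 i2) c2 r2 D2 n2) = some s := h'
          simp only [Option.some.injEq] at h''
          subst h''
          exact ⟨valid_cons M u1 i1 u2 i2 hg.1 hg2.1, hg2.2⟩

lemma defD_sound (ih : RecD) (hih : RecSound ih) (cur1 : ℕ) (rest1 : List ℕ) (D : Tr) (n M : ℕ)
    (s : St) (h : defD ih cur1 rest1 D n M = some s) (hD : AllValid D) : Good M s := by
  unfold defD at h
  cases hc : ih D n M cur1 rest1 with
  | none => rw [hc] at h; exact absurd h (by simp)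
  | some s0 =>
    rw [hc] at h
    have hg := hih _ _ _ _ _ _ hc hD
    cases s0 with
    | mk u i c r D1 n1 =>
      have h' : some (St.mk u i c r (insT 18 n1 M u i D1) (Nat.succ n1)) = some s := h
      simp only [Option.some.injEq] at h'
      subst h'
      exact ⟨hg.1, allValid_ins 18 _ _ _ _ _ hg.1 hg.2⟩

lemma refD_sound (j cur1 : ℕ) (rest1 : List ℕ) (D : Tr) (n M : ℕ)
    (s : St) (h : refD j cur1 rest1 D n M = some s) (hD : AllValid D) : Good M s := by
  unfold refD at h
  have hv := allValid_get 18 j D hD
  cases hg : getT 18 j D with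
  | nil => rw [hg] at h; exact absurd h (by simp)
  | node l r => rw [hg] at h; exact absurd h (by simp)
  | leaf M' u i =>
    rw [hg] at h hv
    have h' : @Bool.rec (fun _ => ResD) none (some (St.mk u i cur1 rest1 D n)) (Nat.beq M' M) = some s := h
    cases hb : Nat.beq M' M with
    | false => rw [hb] at h'; exact absurd h' (by simp)
    | true =>
      rw [hb] at h'
      simp only [Option.some.injEq] at h'
      subst h'
      have e : M' = M := Nat.eq_of_beq_eq_true hb
      subst e
      exact ⟨hv, hD⟩

lemma stepD_sound (tok cur1 : ℕ) (rest1 : List ℕ) (ih : RecD) (hih : RecSound ih) (D : Tr) (n M : ℕ)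
    (s : St) (h : stepD tok cur1 rest1 ih D n M = some s) (hD : AllValid D) : Good M s := by
  unfold stepD at h
  cases h2 : Nat.beq (Nat.mod tok 4) 2 with
  | true =>
    rw [h2] at h
    exact nodeD_sound ih hih _ _ _ _ _ _ _ h hD
  | false =>
    rw [h2] at h
    simp only at h
    cases h3 : Nat.beq (Nat.mod tok 4) 3 with
    | true =>
      rw [h3] at h
      exact consD_sound ih hih _ _ _ _ _ _ h hD
    | false =>
      rw [h3] at h
      simp only at h
      cases h1 : Nat.beq (Nat.mod tok 4) 1 with
      | true =>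
        rw [h1] at h
        exact winD_sound _ _ _ _ _ _ _ _ h hD
      | false =>
        rw [h1] at h
        simp only at h
        cases h4 : Nat.beq (Nat.mod tok 8) 4 with
        | true =>
          rw [h4] at h
          exact refD_sound _ _ _ _ _ _ _ h hD
        | false =>
          rw [h4] at h
          exact defD_sound ih hih _ _ _ _ _ _ h hD

theorem chkD_sound (f : ℕ) : RecSound (chkD f) := by
  induction f with
  | zero =>
    intro D n M cur rest s h _
    exact absurd h (by simp [chkD])
  | succ f ih =>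
    intro D n M cur rest s h hD
    have h' : @Bool.rec (fun _ => ResD)
      (stepD (Nat.mod cur 67108864) (Nat.div cur 67108864) rest (chkD f) D n M)
      (readD (chkD f) D n M rest) (Nat.beq cur 0) = some s := h
    cases hb : Nat.beq cur 0 with
    | false =>
      rw [hb] at h'
      exact stepD_sound _ _ _ _ ih _ _ _ _ h' hD
    | true =>
      rw [hb] at h'
      have h'' : readD (chkD f) D n M rest = some s := h'
      unfold readD at h''
      cases rest with
      | nil => exact absurd h'' (by simp)
      | cons c cs =>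
        exact stepD_sound _ _ _ _ ih _ _ _ _ h'' hD

end

end Vale.Agent.helper2.Snaky
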