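import Mathlib

namespace Vale.Agent.helper2.Snaky

/-- Cells of the square grid, indexed by their lower-left corners. -/
abbrev Cell := ℤ × ℤ

/-- The hexomino Snaky. -/
def snaky : Set Cell := {(0, 0), (1, 0), (2, 0), (3, 0), (3, 1), (4, 1)}

/-- The action on `ℤ²` of the signed permutation matrix with signs `s₁`, `s₂`, with the two
coordinates swapped when `sw` is true. -/
def rmap (sw : Bool) (s₁ s₂ : ℤ) (c : Cell) : Cell :=
  if sw then (s₁ * c.2, s₂ * c.1) else (s₁ * c.1, s₂ * c.2)

/-- `A` is an allowed copy of Snaky: `A = t + R(S)` for a translation `t` and a signed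
permutation matrix `R`. -/
def IsCopy (A : Set Cell) : Prop :=
  ∃ (t : Cell) (sw : Bool) (s₁ s₂ : ℤ), (s₁ = 1 ∨ s₁ = -1) ∧ (s₂ = 1 ∨ s₂ = -1) ∧
    A = (fun c => t + rmap sw s₁ s₂ c) '' snaky

/-- `MakerWins M B`: in the position where Maker owns `M`, Breaker owns `B` and Maker is to move,
Maker can force a win in finitely many turns. Either Maker already owns an allowed copy, or
Maker has a legal move `m` after which, against every legal Breaker reply `b`, the resulting
position is again winning for Maker. -/
inductive MakerWins : Set Cell → Set Cell → Prop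
  | done (M B A : Set Cell) : IsCopy A → A ⊆ M → MakerWins M B
  | step (M B : Set Cell) (m : Cell) : m ∉ M → m ∉ B →
      (∀ b : Cell, b ∉ insert m M → b ∉ B → MakerWins (insert m M) (insert b B)) →
      MakerWins M B

end Vale.Agent.helper2.Snaky
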